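import Crest.Agent.R175.Cox.PF

/-!
# Row 175, Coxeter toolkit 5: chambers, stabilisers, finite type = positive definite (owner helper95)
-/

set_option autoImplicit false

namespace Crest.Agent.R175.Cox

open Crest.Agent.R61 Classical

variable {B W : Type} [Group W] {M : CoxeterMatrix B} (cs : CoxeterSystem M W)

local prefix:100 "s " => cs.simple
local prefix:100 "ℓ " => cs.length

/-- The closed fundamental chamber of `W_U`. -/
def Dom (M : CoxeterMatrix B) (U : Set B) (v : V B) : Prop := ∀ i ∈ U, 0 ≤ form M (al i) v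

theorem form_al_rep (w : W) (u v : V B) : form M u (rep cs w v) = form M (rep cs w⁻¹ u) v := by
  rw [← form_rep cs w⁻¹, rep_inv_rep]

theorem Dom.form_nonneg {U : Set B} {v γ : V B} (hv : Dom M U v) (hγ : γ ∈ VU U) (h0 : 0 ≤ γ) :
    0 ≤ form M γ v := cone_nonneg ((form M).flip v) hv hγ h0

theorem Dom.form_nonpos {U : Set B} {v γ : V B} (hv : Dom M U v) (hγ : γ ∈ VU U) (h0 : γ ≤ 0) :
    form M γ v ≤ 0 := by
  simpa using hv.form_nonneg (neg_mem hγ) (neg_nonneg.2 h0)

/-- The chamber `w C` lies on the positive side of the wall of `s_i` if `s_i w > w`. -/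
theorem Dom.side_up {U : Set B} {v : V B} (hv : Dom M U v) {w : W} (hw : w ∈ par cs U) {i : B} (hi : i ∈ U)
    (h : ℓ w < ℓ (s i * w)) : 0 ≤ form M (al i) (rep cs w v) := by
  rw [form_al_rep]
  exact hv.form_nonneg (rep_mem_VU cs (inv_mem hw) (al_mem_VU hi)) ((upl_iff_al cs w i).1 h)

theorem Dom.side_down {U : Set B} {v : V B} (hv : Dom M U v) {w : W} (hw : w ∈ par cs U) {i : B} (hi : i ∈ U)
    (h : ℓ (s i * w) < ℓ w) : form M (al i) (rep cs w v) ≤ 0 := by
  rw [form_al_rep]
  exact hv.form_nonpos (rep_mem_VU cs (inv_mem hw) (al_mem_VU hi)) ((downl_iff_al cs w i).1 h)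

/-- A dominant vector is the highest point of its orbit. -/
theorem Dom.rep_le {U : Set B} {v : V B} (hv : Dom M U v) {w : W} (hw : w ∈ par cs U) : rep cs w v ≤ v := by
  refine par_induction_right cs (p := fun w => rep cs w v ≤ v) hw (by rw [rep_one]) fun w _ i hi h ih => ?_
  rw [rep_mul, rep_simple, map_sub, map_smul]
  exact le_trans (sub_le_self _ (smul_nonneg (mul_nonneg zero_le_two (hv i hi))
    ((up_iff_al cs w i).1 (by omega)))) ih

theorem rep_fix {I : Set B} {v : V B} (hv : ∀ i ∈ I, form M (al i) v = 0) {w : W} (hw : w ∈ par cs I) :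
    rep cs w v = v :=
  par_induction_left cs (p := fun w => rep cs w v = v) hw (rep_one cs v) fun w _ i hi _ ih => by
    rw [rep_mul, ih, rep_simple, hv i hi]; simp

/-- The closed chamber is a strict fundamental domain; stabilisers are standard parabolic subgroups. -/
theorem Dom.stab {U : Set B} {v : V B} (hv : Dom M U v) {w : W} (hw : w ∈ par cs U) (hwv : Dom M U (rep cs w v)) :
    w ∈ par cs {i | i ∈ U ∧ form M (al i) v = 0} := by
  revert hwv
  refine par_induction_left cs (p := fun w => Dom M U (rep cs w v) → w ∈ _) hw (fun _ => one_mem _)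
    fun w hw i hi h ih hd => ?_
  have h0 : form M (al i) (rep cs (s i * w) v) = 0 := le_antisymm
    (hv.side_down cs (mul_mem (simple_mem_par cs hi) hw) hi (by rw [cs.simple_mul_simple_cancel_left]; omega))
    (hd i hi)
  have h1 : rep cs w v = rep cs (s i * w) v := by
    conv_lhs => rw [← cs.simple_mul_simple_cancel_left (w := w) i, rep_mul, rep_simple, h0]
    simp
  have h2 := ih (h1 ▸ hd)
  refine mul_mem (simple_mem_par cs ⟨hi, ?_⟩) h2
  rwa [← h1, rep_fix cs (fun _ h => h.2) h2] at h0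

theorem Dom.rep_eq {U : Set B} {v : V B} (hv : Dom M U v) {w : W} (hw : w ∈ par cs U)
    (hwv : Dom M U (rep cs w v)) : rep cs w v = v := rep_fix cs (fun _ h => h.2) (hv.stab cs hw hwv)

theorem Dom.stab_iff {U : Set B} {v : V B} (hv : Dom M U v) {w : W} (hw : w ∈ par cs U) :
    rep cs w v = v ↔ w ∈ par cs {i | i ∈ U ∧ form M (al i) v = 0} :=
  ⟨fun h => hv.stab cs hw (h.symm ▸ hv), rep_fix cs fun _ h => h.2⟩

/-- For finite `W_U` the chambers cover the space. -/
theorem Sph.cover {cs : CoxeterSystem M W} {U : Set B} (h : Sph cs U) (v : V B) :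
    ∃ w ∈ par cs U, Dom M U (rep cs w v) := by
  obtain ⟨w, hw, hm⟩ := Set.exists_max_image _ (fun w => ∑ i ∈ h.finite.toFinset, rep cs w v (Sum.inl i)) h
    ⟨1, one_mem _⟩
  refine ⟨w, hw, fun i hi => ?_⟩
  have := hm (cs.simple i * w) (mul_mem (simple_mem_par cs hi) hw)
  simp only [rep_mul, rep_simple, Finsupp.sub_apply, Finsupp.smul_apply, al, Finsupp.single_apply, smul_eq_mul,
    Finset.sum_sub_distrib, Sum.inl.injEq, mul_ite, mul_one, mul_zero, Finset.sum_ite_eq, Set.Finite.mem_toFinset,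
    hi, if_true] at this
  unfold al
  linarith

/-- The longest element sends the simple roots of `U` to minus the simple roots. -/
theorem IsLong.rep_al {cs : CoxeterSystem M W} {U : Set B} {w : W} (h : IsLong cs U w) {i j : B} (hi : i ∈ U)
    (hij : w * cs.simple i = cs.simple j * w) : rep cs w (al i) = - al j := by
  have := rt_conj_of_down (cs.isReflection_simple i) (h.2 i hi)
  rw [hij, mul_inv_cancel_right, rt_simple, rt_simple] at this
  rw [this, neg_neg]

variable [Fintype B]

theorem rep_simple_vec (i : B) (x : B → ℝ) :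
    rep cs (s i) (vec x) = vec (x - (∑ j, Cm M i j * x j) • Pi.single i 1) := by
  rw [rep_simple, form_al_vec, map_sub, map_smul, vec_single]

omit [Fintype B] in
theorem form_al_rep_simple (i j : B) (v : V B) :
    form M (al j) (rep cs (s i) v) = form M (al j) v - Cm M i j * form M (al i) v := by
  rw [rep_simple, map_sub, map_smul, Cm_symm, Cm_form, smul_eq_mul]; ring

/-- Finite type implies positive definite. -/
theorem Sph.pd {cs : CoxeterSystem M W} {U : Set B} (h : Sph cs U) : PD M U := by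
  by_contra hn
  obtain ⟨y, h1, h2, h3, h4⟩ := exists_of_not_pd hn
  have hd : Dom M U (-vec y) := fun i hi => by
    have := h4 i hi
    rw [← form_al_vec] at this
    rw [map_neg]; linarith
  have a1 := hd.rep_le cs h.long.1
  have a2 := cone_nonpos (rep cs (w0 cs U)) (fun i hi => (down_iff_al cs _ i).1 (h.long.2 i hi))
    (vec_mem_VU.2 h1) (vec_nonneg.2 h2)
  rw [map_neg, neg_le_neg_iff] at a1
  exact h3 (le_antisymm (vec_nonpos.1 (a1.trans a2)) h2)

/-- Positive definite implies finite type. -/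
theorem PD.sph {U : Set B} (h : PD M U) : Sph cs U := by
  obtain ⟨c, hc, hl⟩ := h.lower
  set ρ : V B := cov fun _ => 1 with hρ
  have hd : Dom M U ρ := fun i _ => by rw [hρ, form_al_cov]; exact zero_le_one
  let φ : W → B → ℝ := fun w i => (rep cs w ρ - ρ) (Sum.inl i)
  have hφ : ∀ w ∈ par cs U, vec (φ w) = rep cs w ρ - ρ := fun w hw => vec_of_mem (rep_sub_mem_VU cs hw ρ)
  have hs : ∀ w ∈ par cs U, Supp U (φ w) := fun w hw => vec_mem_VU.1 (hφ w hw ▸ rep_sub_mem_VU cs hw ρ)
  have hb : ∀ w ∈ par cs U, φ w ∈ Metric.closedBall 0 (4 * Fintype.card B / c) := by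
    intro w hw
    have e1 : rep cs w ρ = vec (φ w) + ρ := by rw [hφ w hw, sub_add_cancel]
    have e2 := form_rep cs w ρ ρ
    rw [e1] at e2
    simp only [map_add, LinearMap.add_apply, form_symm M ρ (vec (φ w))] at e2
    have e3 : form M (vec (φ w)) ρ = ∑ i, φ w i := by rw [hρ, form_vec_cov]; simp
    have e4 := hl _ (hs w hw)
    rw [qf_form] at e4
    have e5 : -∑ i, φ w i ≤ Fintype.card B * ‖φ w‖ := by
      rw [← Finset.sum_neg_distrib]
      refine (Finset.sum_le_card_nsmul _ _ ‖φ w‖ fun i _ => ?_).trans (by simp)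
      exact (neg_le_abs _).trans (norm_le_pi_norm (φ w) i)
    have e6 : ‖φ w‖ ^ 2 ≤ ∑ i, φ w i ^ 2 := by
      rw [← Real.le_sqrt (norm_nonneg _) (Finset.sum_nonneg fun i _ => sq_nonneg _),
        pi_norm_le_iff_of_nonneg (Real.sqrt_nonneg _)]
      intro i
      exact Real.abs_le_sqrt (Finset.single_le_sum (f := fun i => φ w i ^ 2) (fun i _ => sq_nonneg _)
        (Finset.mem_univ i))
    rw [mem_closedBall_zero_iff, le_div_iff₀ hc]
    rcases (norm_nonneg (φ w)).eq_or_lt with h0 | h0
    · rw [← h0, zero_mul]; positivity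
    · refine le_of_mul_le_mul_right ?_ h0
      nlinarith
  have hsep : ∀ w ∈ par cs U, ∀ w' ∈ par cs U, qf M (φ w - φ w') < 2 → w = w' := by
    intro w hw w' hw' hq
    by_contra hne
    have hu := mul_mem (inv_mem hw') hw
    obtain ⟨i, hi⟩ := cs.exists_leftDescent_of_ne_one (w := w'⁻¹ * w) (by rwa [Ne, inv_mul_eq_one, eq_comm])
    have hiU := mem_of_downl cs hu hi
    have e1 := hd.side_down cs hu hiU hi
    have e2 : form M (al i) ρ = 1 := by rw [hρ, form_al_cov]
    set d := rep cs (w'⁻¹ * w) ρ - ρ with hdd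
    have e3 : qf M (φ w - φ w') = 2 * form M d d := by
      rw [qf_form, map_sub, hφ w hw, hφ w' hw', ← form_rep cs w'⁻¹, sub_sub_sub_cancel_right, map_sub,
        rep_inv_rep, ← rep_mul]
    have e4 : form M (al i) d ≤ -1 := by rw [hdd, map_sub, e2]; linarith
    have e5 := h.form_nonneg (add_mem (rep_sub_mem_VU cs hu ρ) (al_mem_VU hiU))
    rw [← hdd] at e5
    simp only [map_add, LinearMap.add_apply, form_symm M d (al i), form_al_self] at e5
    linarith
  obtain ⟨δ, hδ, hq⟩ := Metric.continuousAt_iff.1 ((continuous_qf M).continuousAt (x := 0)) 2 two_pos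
  obtain ⟨t, ht, hcov⟩ := Metric.totallyBounded_iff.1
    (isCompact_closedBall (0 : B → ℝ) (4 * Fintype.card B / c)).totallyBounded (δ / 2) (by positivity)
  refine (ht.biUnion (t := fun y => {w | w ∈ par cs U ∧ φ w ∈ Metric.ball y (δ / 2)}) fun y _ =>
    Set.Subsingleton.finite fun w hw w' hw' => hsep w hw.1 w' hw'.1 ?_).subset fun w hw => ?_
  · have : dist (φ w - φ w') 0 < δ := by
      rw [dist_zero_right, ← dist_eq_norm]
      linarith [dist_triangle_right (φ w) (φ w') y, Metric.mem_ball.1 hw.2, Metric.mem_ball.1 hw'.2]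
    have h2 := hq this
    rw [show qf M 0 = 0 by simp [qf], Real.dist_eq, sub_zero] at h2
    exact (le_abs_self _).trans_lt h2
  · obtain ⟨y, hy, h⟩ := Set.mem_iUnion₂.1 (hcov (hb w hw))
    exact Set.mem_iUnion₂.2 ⟨y, hy, hw, h⟩

theorem sph_iff_pd {U : Set B} : Sph cs U ↔ PD M U := ⟨Sph.pd, PD.sph cs⟩

/-- Trichotomy for a connected set: finite, affine (all proper subsets finite) or indefinite type. -/
theorem trichotomy {U : Set B} (hU : U.Nonempty) (hc : Conn M U) : ∃ (lam : ℝ) (y : B → ℝ), Supp U y ∧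
    (∀ i ∈ U, 0 < y i) ∧ (∀ i ∈ U, ∑ j, Cm M i j * y j = lam * y i) ∧ (Sph cs U ↔ 0 < lam) ∧
    (0 ≤ lam → ∀ U' ⊂ U, Sph cs U') := by
  obtain ⟨lam, y, h1, h2, h3, h4⟩ := exists_pf_pos M hU hc
  refine ⟨lam, y, h1, h2, h3, ⟨fun h => ?_, fun h => (pd_of_lower h h4).sph cs⟩, fun h U' hU' =>
    (pd_of_psd hc (fun x hx => le_trans (mul_nonneg h (Finset.sum_nonneg fun i _ => sq_nonneg _)) (h4 x hx))
      hU').sph cs⟩
  obtain ⟨i, hi⟩ := hU
  have := h.pd y h1 fun e => (h2 i hi).ne' (congrFun e i)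
  by_contra hl
  refine this.not_ge (Finset.sum_nonpos fun j _ => ?_)
  by_cases hj : j ∈ U
  · rw [h3 j hj]
    exact mul_nonpos_of_nonneg_of_nonpos (h2 j hj).le (mul_nonpos_of_nonpos_of_nonneg (not_lt.1 hl) (h2 j hj).le)
  · rw [h1 j hj, zero_mul]

end Crest.Agent.R175.Cox
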