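import Crest.Agent.R175.Cox.Par

/-!
# Row 175, Coxeter toolkit 2: longest elements, dihedral parabolics (owner helper95)
-/

set_option autoImplicit false

namespace Crest.Agent.R175.Cox

open Crest.Agent.R61 Classical CoxeterSystem

variable {B W : Type} [Group W] {M : CoxeterMatrix B} (cs : CoxeterSystem M W)

local prefix:100 "s " => cs.simple
local prefix:100 "π " => cs.wordProd
local prefix:100 "ℓ " => cs.length

/-- `W_U` is finite ("`U` is spherical"). -/
def Sph (U : Set B) : Prop := (par cs U : Set W).Finite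

theorem Sph.mono {cs : CoxeterSystem M W} {U U' : Set B} (h : Sph cs U') (hU : U ⊆ U') : Sph cs U :=
  Set.Finite.subset h (par_mono cs hU)

theorem Sph.finite {cs : CoxeterSystem M W} {U : Set B} (h : Sph cs U) : U.Finite :=
  Set.Finite.of_finite_image (f := cs.simple) (h.subset (by rintro _ ⟨i, hi, rfl⟩; exact simple_mem_par cs hi))
    (simple_injective cs).injOn

theorem sph_empty : Sph cs ∅ := by simp [Sph, par_empty]

theorem finite_length_le {U : Set B} (hU : U.Finite) (n : ℕ) : {w | w ∈ par cs U ∧ ℓ w ≤ n}.Finite := by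
  induction n with
  | zero => exact (Set.finite_singleton 1).subset fun w hw => by simpa using hw.2
  | succ n ih =>
    refine (ih.union ((ih.prod hU).image fun p => p.1 * s p.2)).subset fun w hw => ?_
    obtain ⟨h1, h2⟩ := hw
    revert h2
    refine par_induction_right cs (p := fun w => ℓ w ≤ n + 1 → w ∈ _) h1 (fun _ => Or.inl ⟨one_mem _, by simp⟩)
      fun w hw i hi h _ h2 => Or.inr ⟨(w, i), ⟨⟨hw, (by omega : ℓ w ≤ n)⟩, hi⟩, rfl⟩

/-- If every `i ∈ U` is a right descent of one element, then `W_U` is finite. -/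
theorem sph_of_down {U : Set B} (hU : U.Finite) {w : W} (h : ∀ i ∈ U, ℓ (w * s i) < ℓ w) : Sph cs U :=
  (finite_length_le cs hU (ℓ w)).subset fun v hv => ⟨hv, by have := length_mul_of_max cs h hv; omega⟩

theorem sph_of_downl {U : Set B} (hU : U.Finite) {w : W} (h : ∀ i ∈ U, ℓ (s i * w) < ℓ w) : Sph cs U :=
  (finite_length_le cs hU (ℓ w)).subset fun v hv => ⟨hv, by have := length_mul_of_maxl cs h hv; omega⟩

theorem sph_singleton (i : B) : Sph cs {i} :=
  sph_of_down cs (Set.finite_singleton i) (w := s i) (by simp)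

/-- `w` is the longest element of `W_U`. -/
def IsLong (U : Set B) (w : W) : Prop := w ∈ par cs U ∧ ∀ i ∈ U, ℓ (w * s i) < ℓ w

variable {cs}

theorem IsLong.length_mul {U : Set B} {w v : W} (h : IsLong cs U w) (hv : v ∈ par cs U) :
    ℓ (w * v) + ℓ v = ℓ w := length_mul_of_max cs h.2 hv

theorem IsLong.length_le {U : Set B} {w v : W} (h : IsLong cs U w) (hv : v ∈ par cs U) : ℓ v ≤ ℓ w := by
  have := h.length_mul hv; omega

theorem isLong_of_max {U : Set B} {w : W} (hw : w ∈ par cs U) (h : ∀ v ∈ par cs U, ℓ v ≤ ℓ w) : IsLong cs U w :=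
  ⟨hw, fun i hi => (up_or_down' cs w i).resolve_left
    (not_lt.2 (h _ (mul_mem hw (simple_mem_par cs hi))))⟩

theorem IsLong.eq_of_le {U : Set B} {w v : W} (h : IsLong cs U w) (hv : v ∈ par cs U) (hl : ℓ w ≤ ℓ v) :
    v = w := by
  have h1 := h.length_mul (mul_mem (inv_mem h.1) hv)
  rw [mul_inv_cancel_left] at h1
  have : ℓ (w⁻¹ * v) = 0 := by omega
  exact (inv_mul_eq_one.1 (cs.length_eq_zero_iff.1 this)).symm

theorem IsLong.unique {U : Set B} {w v : W} (h : IsLong cs U w) (hv : IsLong cs U v) : v = w :=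
  h.eq_of_le hv.1 (hv.length_le h.1)

theorem IsLong.inv {U : Set B} {w : W} (h : IsLong cs U w) : w⁻¹ = w :=
  h.eq_of_le (inv_mem h.1) (by rw [cs.length_inv])

theorem IsLong.mul_self {U : Set B} {w : W} (h : IsLong cs U w) : w * w = 1 := by
  nth_rewrite 1 [← h.inv]; simp

theorem IsLong.downl {U : Set B} {w : W} (h : IsLong cs U w) {i : B} (hi : i ∈ U) : ℓ (s i * w) < ℓ w := by
  rw [length_simple_mul_eq, h.inv]; exact h.2 i hi

theorem IsLong.length_mul' {U : Set B} {w v : W} (h : IsLong cs U w) (hv : v ∈ par cs U) :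
    ℓ (v * w) + ℓ v = ℓ w := length_mul_of_maxl cs (fun _ hi => h.downl hi) hv

/-- Conjugation by the longest element permutes the simple reflections of `U`. -/
theorem IsLong.conj {U : Set B} {w : W} (h : IsLong cs U w) {i : B} (hi : i ∈ U) :
    ∃ j ∈ U, w * s i = s j * w := by
  have h1 := h.length_mul' (mul_mem h.1 (simple_mem_par cs hi))
  have h2 := down_succ cs (h.2 i hi)
  obtain ⟨j, hj⟩ := cs.length_eq_one_iff.1 (show ℓ (w * s i * w) = 1 by omega)
  refine ⟨j, (simple_mem_par_iff cs).1 (hj ▸ mul_mem (mul_mem h.1 (simple_mem_par cs hi)) h.1), ?_⟩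
  rw [← hj, mul_assoc, h.mul_self, mul_one]

theorem Sph.exists_long {U : Set B} (h : Sph cs U) : ∃ w, IsLong cs U w := by
  obtain ⟨w, hw, hm⟩ := Set.exists_max_image _ cs.length h ⟨1, one_mem _⟩
  exact ⟨w, isLong_of_max hw hm⟩

variable (cs)

/-- The longest element of `W_U` (junk value `1` if `W_U` is infinite). -/
noncomputable def w0 (U : Set B) : W := if h : ∃ w, IsLong cs U w then h.choose else 1

variable {cs}

theorem Sph.long {U : Set B} (h : Sph cs U) : IsLong cs U (w0 cs U) := by
  rw [w0, dif_pos h.exists_long]; exact h.exists_long.choose_spec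

theorem IsLong.eq_w0 {U : Set B} {w : W} (h : IsLong cs U w) : w0 cs U = w := by
  have h' : ∃ w, IsLong cs U w := ⟨w, h⟩
  rw [w0, dif_pos h']; exact h.unique h'.choose_spec

theorem w0_mem (U : Set B) : w0 cs U ∈ par cs U := by
  unfold w0; split_ifs with h
  · exact h.choose_spec.1
  · exact one_mem _

theorem w0_empty : w0 cs ∅ = 1 := IsLong.eq_w0 ⟨one_mem _, by simp⟩

theorem w0_singleton (i : B) : w0 cs {i} = s i := IsLong.eq_w0 ⟨simple_mem_par cs rfl, by simp⟩

/-- If all of `U` are right descents of `w`, then `w0 U` is a suffix of `w`. -/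
theorem length_of_down {U : Set B} {w : W} (h : ∀ i ∈ U, ℓ (w * s i) < ℓ w) :
    ℓ (w * w0 cs U) + ℓ (w0 cs U) = ℓ w := length_mul_of_max cs h (w0_mem U)

theorem length_of_downl {U : Set B} {w : W} (h : ∀ i ∈ U, ℓ (s i * w) < ℓ w) :
    ℓ (w0 cs U * w) + ℓ (w0 cs U) = ℓ w := length_mul_of_maxl cs h (w0_mem U)

variable (cs)

/-- Alternating words of length at most `m` are reduced. -/
theorem isReduced_alt {i j : B} (hij : i ≠ j) (k : ℕ) (hk : M i j ≠ 0 → k ≤ M i j) :
    cs.IsReduced (alternatingWord i j k) := by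
  induction k generalizing i j with
  | zero => simp [alternatingWord, CoxeterSystem.IsReduced]
  | succ k ih =>
    rw [alternatingWord_succ, List.concat_eq_append]
    have hM := M.symmetric i j
    refine isReduced_concat cs (ih hij.symm (by rw [← hM]; intro h; have := hk h; omega)) ?_
    rw [up_iff_al, rep_alternatingWord_al]
    have h1 : M j i ≠ 1 := M.off_diagonal j i hij.symm
    refine add_nonneg (smul_nonneg (geomA_nonneg h1 fun h => ?_) (al_nonneg _))
      (smul_nonneg (geomA_nonneg h1 fun h => ?_) (al_nonneg _)) <;>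
    · have := hk (hM ▸ h)
      split_ifs <;> omega

theorem alt_mem (i j : B) (k : ℕ) : ∀ x ∈ alternatingWord i j k, x ∈ ({i, j} : Set B) := by
  induction k generalizing i j with
  | zero => simp [alternatingWord]
  | succ k ih =>
    intro x hx
    rw [alternatingWord_succ, List.concat_eq_append, List.mem_append] at hx
    rcases hx with hx | hx
    · rw [Set.pair_comm]; exact ih j i x hx
    · simp at hx; simp [hx]

theorem isLong_alt {i j : B} (hij : i ≠ j) (h : M i j ≠ 0) :
    IsLong cs {i, j} (π (alternatingWord i j (M i j))) := by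
  have key : ∀ i j : B, i ≠ j → M i j ≠ 0 →
      ℓ (π (alternatingWord i j (M i j)) * s j) < ℓ (π (alternatingWord i j (M i j))) := by
    intro i j hij h
    have h1 := isReduced_alt cs hij (M i j) fun _ => le_rfl
    obtain ⟨k, hk⟩ := Nat.exists_eq_succ_of_ne_zero h
    rw [hk, alternatingWord_succ, List.concat_eq_append] at h1 ⊢
    have := (IsReduced.of_concat cs h1).2
    rw [cs.wordProd_append, cs.wordProd_singleton, cs.simple_mul_simple_cancel_right]; omega
  refine ⟨wordProd_mem_par cs (alt_mem i j _), ?_⟩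
  rintro x (rfl | rfl)
  · have := cs.wordProd_braidWord_eq x j
    unfold braidWord at this
    rw [this]
    exact key j x hij.symm (M.symmetric x j ▸ h)
  · exact key i x hij h

theorem w0_pair {i j : B} (hij : i ≠ j) (h : M i j ≠ 0) : w0 cs {i, j} = π (alternatingWord i j (M i j)) :=
  (isLong_alt cs hij h).eq_w0

theorem length_w0_pair {i j : B} (hij : i ≠ j) (h : M i j ≠ 0) : ℓ (w0 cs {i, j}) = M i j := by
  rw [w0_pair cs hij h, (isReduced_alt cs hij (M i j) fun _ => le_rfl).eq, length_alternatingWord]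

theorem sph_pair_iff {i j : B} (hij : i ≠ j) : Sph cs {i, j} ↔ M i j ≠ 0 := by
  refine ⟨fun h h0 => ?_, fun h => sph_of_down cs (Set.toFinite _) (isLong_alt cs hij h).2⟩
  have h1 := h.long.length_le (wordProd_mem_par cs (alt_mem i j (ℓ (w0 cs {i, j}) + 1)))
  rw [(isReduced_alt cs hij _ fun h => absurd h0 h).eq, length_alternatingWord] at h1
  omega

/-- Two right descents: the label is finite. -/
theorem ne_zero_of_down {i j : B} (hij : i ≠ j) {w : W} (hi : ℓ (w * s i) < ℓ w) (hj : ℓ (w * s j) < ℓ w) :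
    M i j ≠ 0 :=
  (sph_pair_iff cs hij).1 (sph_of_down cs (Set.toFinite _) (w := w) (by rintro x (rfl | rfl) <;> assumption))

theorem ne_zero_of_downl {i j : B} (hij : i ≠ j) {w : W} (hi : ℓ (s i * w) < ℓ w) (hj : ℓ (s j * w) < ℓ w) :
    M i j ≠ 0 :=
  (sph_pair_iff cs hij).1 (sph_of_downl cs (Set.toFinite _) (w := w) (by rintro x (rfl | rfl) <;> assumption))

end Crest.Agent.R175.Cox
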