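import Crest.Agent.R175.Cox.Long
import Crest.Prelude.Def_ArtinGroup

/-!
# Row 175, Coxeter toolkit 3: Matsumoto's theorem, the lift `W → A`, Garside elements (owner helper95)
-/

set_option autoImplicit false

namespace Crest.Agent.R175.Cox

open Crest.Agent.R61 Classical CoxeterSystem Crest.GroupTheory

variable {B W : Type} [Group W] {M : CoxeterMatrix B} (cs : CoxeterSystem M W)

local prefix:100 "s " => cs.simple
local prefix:100 "π " => cs.wordProd
local prefix:100 "ℓ " => cs.length

/-- The alternating product `a * b * a * ⋯` with `m` factors. -/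
def altP {G : Type*} [Monoid G] : G → G → ℕ → G
  | _, _, 0 => 1
  | a, b, m + 1 => a * altP b a m

theorem altP_zero {G : Type*} [Monoid G] (a b : G) : altP a b 0 = 1 := rfl

theorem altP_succ {G : Type*} [Monoid G] (a b : G) (m : ℕ) : altP a b (m + 1) = a * altP b a m := rfl

theorem altP_succ' {G : Type*} [Monoid G] (a b : G) (m : ℕ) :
    altP a b (m + 1) = altP a b m * if Even m then a else b := by
  induction m generalizing a b with
  | zero => simp [altP]
  | succ m ih =>
    rw [altP_succ, ih, ← mul_assoc, ← altP_succ]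
    by_cases h : Even m <;> simp [h, Nat.even_add_one]

theorem map_altP {G H F : Type*} [Monoid G] [Monoid H] [FunLike F G H] [MonoidHomClass F G H] (φ : F) (a b : G)
    (m : ℕ) : φ (altP a b m) = altP (φ a) (φ b) m := by
  induction m generalizing a b with
  | zero => simp [altP]
  | succ m ih => simp [altP, ih]

theorem inv_altP {G : Type*} [Group G] (a b : G) (m : ℕ) :
    (altP a b m)⁻¹ = if Even m then altP b⁻¹ a⁻¹ m else altP a⁻¹ b⁻¹ m := by
  induction m generalizing a b with
  | zero => simp [altP]
  | succ m ih =>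
    rw [altP_succ, mul_inv_rev, ih]
    by_cases h : Even m <;> simp [h, Nat.even_add_one, altP_succ']

theorem prod_alt {G : Type*} [Monoid G] (f : B → G) (i j : B) (m : ℕ) :
    ((alternatingWord i j m).map f).prod = if Even m then altP (f i) (f j) m else altP (f j) (f i) m := by
  induction m with
  | zero => simp [alternatingWord, altP]
  | succ m ih =>
    rw [alternatingWord_succ', List.map_cons, List.prod_cons, ih]
    by_cases h : Even m <;> simp [h, Nat.even_add_one, altP]

theorem artinAltWord_eq {S : Type*} (i j : S) (m : ℕ) :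
    artinAltWord i j m = altP (FreeGroup.of i) (FreeGroup.of j) m := by
  induction m generalizing i j with
  | zero => rfl
  | succ m ih => simp [artinAltWord, altP, ih]

/-- The braid relations (trivially true for `i = j` and for the label `0 = ∞`). -/
def Braid {S : Type*} (M : CoxeterMatrix S) {G : Type*} [Monoid G] (f : S → G) : Prop :=
  ∀ i j, altP (f i) (f j) (M i j) = altP (f j) (f i) (M i j)

theorem braid_of_ne {S : Type*} {M : CoxeterMatrix S} {G : Type*} [Monoid G] {f : S → G}
    (h : ∀ i j, i ≠ j → M i j ≠ 0 → altP (f i) (f j) (M i j) = altP (f j) (f i) (M i j)) : Braid M f := by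
  intro i j
  by_cases hij : i = j
  · rw [hij]
  by_cases h0 : M i j = 0
  · rw [h0]; rfl
  exact h i j hij h0

theorem Braid.map {S : Type*} {M : CoxeterMatrix S} {G H F : Type*} [Monoid G] [Monoid H] [FunLike F G H]
    [MonoidHomClass F G H] {f : S → G} (hf : Braid M f) (φ : F) : Braid M fun i => φ (f i) := fun i j => by
  rw [← map_altP, ← map_altP, hf]

theorem Braid.inv {S : Type*} {M : CoxeterMatrix S} {G : Type*} [Group G] {f : S → G} (hf : Braid M f) :
    Braid M fun i => (f i)⁻¹ := fun i j => by
  have := congrArg Inv.inv (hf i j)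
  rw [inv_altP, inv_altP] at this
  split_ifs at this
  · exact this.symm
  · exact this

theorem braid_gen {S : Type*} (M : CoxeterMatrix S) : Braid M (artinGen M) := fun i j => by
  have := PresentedGroup.one_of_mem (rels := artinRelators M) ⟨(i, j), rfl⟩
  simp only [map_mul, map_inv, artinAltWord_eq, map_altP, mul_inv_eq_one] at this
  exact this

/-- The universal property of the Artin group. -/
def artinLift {S : Type*} {M : CoxeterMatrix S} {G : Type*} [Group G] {f : S → G} (hf : Braid M f) :
    ArtinGroup M →* G :=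
  PresentedGroup.toGroup (f := f) (by
    rintro _ ⟨⟨i, j⟩, rfl⟩
    simp only [map_mul, map_inv, artinAltWord_eq, map_altP, mul_inv_eq_one, FreeGroup.lift_apply_of]
    exact hf i j)

@[simp] theorem artinLift_gen {S : Type*} {M : CoxeterMatrix S} {G : Type*} [Group G] {f : S → G}
    (hf : Braid M f) (i : S) : artinLift hf (artinGen M i) = f i := PresentedGroup.toGroup.of _

theorem artin_ext {S : Type*} {M : CoxeterMatrix S} {G : Type*} [Group G] {φ ψ : ArtinGroup M →* G}
    (h : ∀ i, φ (artinGen M i) = ψ (artinGen M i)) : φ = ψ := PresentedGroup.ext h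

theorem stdParabolic_univ {S : Type*} (M : CoxeterMatrix S) : stdParabolic M Set.univ = ⊤ := by
  rw [stdParabolic, Set.image_univ]; exact PresentedGroup.closure_range_of _

theorem Braid.prod_alt {G : Type*} [Monoid G] {f : B → G} (hf : Braid M f) (i j : B) :
    ((alternatingWord i j (M i j)).map f).prod = altP (f i) (f j) (M i j) := by
  rw [Cox.prod_alt]; split_ifs
  · rfl
  · exact (hf i j).symm

theorem braid_simple : Braid M cs.simple := fun i j => by
  have := cs.wordProd_braidWord_eq i j
  simp only [braidWord, wordProd, prod_alt, ← M.symmetric i j] at this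
  split_ifs at this
  · exact this
  · exact this.symm

/-- **Matsumoto's theorem**. -/
theorem matsumoto {G : Type*} [Monoid G] {f : B → G} (hf : Braid M f) {ω η : List B} (hω : cs.IsReduced ω)
    (hη : cs.IsReduced η) (h : π ω = π η) : (ω.map f).prod = (η.map f).prod := by
  induction hn : ω.length generalizing ω η with
  | zero =>
    have : η.length = 0 := by rw [← hη.eq, ← h, hω.eq, hn]
    rw [List.length_eq_zero_iff.1 hn, List.length_eq_zero_iff.1 this]
  | succ n ih =>
    have same : ∀ (ω η : List B) (i : B), ω.length = n → cs.IsReduced (ω ++ [i]) → cs.IsReduced (η ++ [i]) →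
        π (ω ++ [i]) = π (η ++ [i]) → ((ω ++ [i]).map f).prod = ((η ++ [i]).map f).prod := by
      intro ω η i hl h1 h2 h3
      simp only [cs.wordProd_append, mul_left_inj] at h3
      simp only [List.map_append, List.prod_append]
      rw [ih (IsReduced.of_concat cs h1).1 (IsReduced.of_concat cs h2).1 h3 hl]
    have hl : η.length = n + 1 := by rw [← hη.eq, ← h, hω.eq, hn]
    obtain ⟨ω, i, rfl⟩ : ∃ a i, ω = a ++ [i] := by
      rcases List.eq_nil_or_concat ω with rfl | ⟨a, i, rfl⟩
      · simp at hn
      · exact ⟨a, i, by simp⟩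
    obtain ⟨η, j, rfl⟩ : ∃ a i, η = a ++ [i] := by
      rcases List.eq_nil_or_concat η with rfl | ⟨a, i, rfl⟩
      · simp at hl
      · exact ⟨a, i, by simp⟩
    have hn' : ω.length = n := by simpa using hn
    have hl' : η.length = n := by simpa using hl
    by_cases hij : i = j
    · subst hij; exact same _ _ _ hn' hω hη h
    set w := π (ω ++ [i]) with hw
    have down : ∀ (a : List B) (i : B), cs.IsReduced (a ++ [i]) → w = π (a ++ [i]) → ℓ (w * s i) < ℓ w := by
      intro a i h1 h2
      have := (IsReduced.of_concat cs h1).2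
      rw [h2, cs.wordProd_append, cs.wordProd_singleton, cs.simple_mul_simple_cancel_right]; omega
    have hi := down _ _ hω rfl
    have hj := down _ _ hη h
    have h0 := ne_zero_of_down cs hij hi hj
    have hd := length_of_down (cs := cs) (U := {i, j}) (w := w) (by rintro x (rfl | rfl) <;> assumption)
    obtain ⟨ξ, hξ, hx⟩ := cs.exists_isReduced (w * w0 cs {i, j})
    have hL := (isLong_alt cs hij h0).mul_self
    have step : ∀ (a : List B) (i j : B), i ≠ j → M j i ≠ 0 → a.length = n → cs.IsReduced (a ++ [i]) →
        w = π (a ++ [i]) → ℓ (π ξ) + ℓ (w0 cs {j, i}) = ℓ w → w = π ξ * w0 cs {j, i} →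
        ((a ++ [i]).map f).prod = (ξ.map f).prod * altP (f j) (f i) (M j i) := by
      intro a i j hij h0 ha h1 h2 h3 h4
      rw [w0_pair cs hij.symm h0] at h3 h4
      have h5 := isReduced_append cs hξ (isReduced_alt cs hij.symm (M j i) fun _ => le_rfl) (by rw [← h4, h3])
      rw [← hf.prod_alt, ← List.prod_append, ← List.map_append]
      rw [← cs.wordProd_append] at h4
      obtain ⟨k, hk⟩ := Nat.exists_eq_succ_of_ne_zero h0
      rw [hk, alternatingWord_succ, List.concat_eq_append, ← List.append_assoc] at h4 h5 ⊢
      exact same _ _ _ ha h1 h5 (h2.symm.trans h4)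
    have h4 : w = π ξ * w0 cs {i, j} := by
      rw [← hx, mul_assoc, w0_pair cs hij h0, hL, mul_one]
    rw [step ω i j hij (M.symmetric i j ▸ h0) hn' hω rfl (by rw [Set.pair_comm, ← hx, hd])
        (by rw [Set.pair_comm]; exact h4),
      step η j i (Ne.symm hij) h0 hl' hη h (by rw [← hx, hd]) h4, hf i j, M.symmetric j i]

section lift
variable {G : Type*} [Monoid G]

/-- The canonical lift of `w`: the product of `f` along any reduced word. -/
noncomputable def lft (f : B → G) (w : W) : G := ((cs.exists_isReduced w).choose.map f).prod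

variable {f : B → G}

theorem lft_wordProd (hf : Braid M f) {ω : List B} (hω : cs.IsReduced ω) : lft cs f (π ω) = (ω.map f).prod :=
  matsumoto cs hf (cs.exists_isReduced _).choose_spec.1 hω (cs.exists_isReduced _).choose_spec.2.symm

theorem lft_mul (hf : Braid M f) {u v : W} (h : ℓ (u * v) = ℓ u + ℓ v) :
    lft cs f (u * v) = lft cs f u * lft cs f v := by
  obtain ⟨ω, h1, rfl⟩ := cs.exists_isReduced u
  obtain ⟨η, h2, rfl⟩ := cs.exists_isReduced v
  rw [← cs.wordProd_append, lft_wordProd cs hf (isReduced_append cs h1 h2 h), lft_wordProd cs hf h1,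
    lft_wordProd cs hf h2, List.map_append, List.prod_append]

theorem lft_one (hf : Braid M f) : lft cs f 1 = 1 := by
  simpa using lft_wordProd cs hf (ω := []) (by simp [CoxeterSystem.IsReduced])

theorem lft_simple (hf : Braid M f) (i : B) : lft cs f (s i) = f i := by
  simpa using lft_wordProd cs hf (ω := [i]) (by simp [CoxeterSystem.IsReduced])

theorem lft_mul_simple (hf : Braid M f) {w : W} {i : B} (h : ℓ w < ℓ (w * s i)) :
    lft cs f (w * s i) = lft cs f w * f i := by
  rw [lft_mul cs hf (by rw [up_succ cs h, cs.length_simple]), lft_simple cs hf]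

theorem lft_simple_mul (hf : Braid M f) {w : W} {i : B} (h : ℓ w < ℓ (s i * w)) :
    lft cs f (s i * w) = f i * lft cs f w := by
  rw [lft_mul cs hf (by rw [upl_succ cs h, cs.length_simple, add_comm]), lft_simple cs hf]

theorem lft_of_down (hf : Braid M f) {w : W} {i : B} (h : ℓ (w * s i) < ℓ w) :
    lft cs f w = lft cs f (w * s i) * f i := by
  rw [← lft_mul_simple cs hf (by rwa [cs.simple_mul_simple_cancel_right]), cs.simple_mul_simple_cancel_right]

theorem lft_of_downl (hf : Braid M f) {w : W} {i : B} (h : ℓ (s i * w) < ℓ w) :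
    lft cs f w = f i * lft cs f (s i * w) := by
  rw [← lft_simple_mul cs hf (by rwa [cs.simple_mul_simple_cancel_left]), cs.simple_mul_simple_cancel_left]

theorem map_lft {H F : Type*} [Monoid H] [FunLike F G H] [MonoidHomClass F G H] (φ : F) (w : W) :
    φ (lft cs f w) = lft cs (fun i => φ (f i)) w := by
  simp only [lft, map_list_prod, List.map_map]; rfl

theorem lft_self (w : W) : lft cs cs.simple w = w := (cs.exists_isReduced w).choose_spec.2.symm

theorem lft_mem {U : Set B} {w : W} (hw : w ∈ par cs U) : lft cs f w ∈ Submonoid.closure (f '' U) := by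
  have h := (cs.exists_isReduced w).choose_spec
  refine list_prod_mem fun x hx => ?_
  obtain ⟨i, hi, rfl⟩ := List.mem_map.1 hx
  exact Submonoid.subset_closure ⟨i, mem_of_reduced cs h.1 (h.2 ▸ hw) i hi, rfl⟩

theorem lft_mem_subgroup {G : Type*} [Group G] {f : B → G} {U : Set B} {w : W} (hw : w ∈ par cs U) :
    lft cs f w ∈ Subgroup.closure (f '' U) :=
  Subgroup.le_closure_toSubmonoid _ (lft_mem cs hw)

theorem inv_lft {G : Type*} [Group G] {f : B → G} (hf : Braid M f) (w : W) :
    (lft cs f w)⁻¹ = lft cs (fun i => (f i)⁻¹) w⁻¹ := by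
  obtain ⟨ω, h1, rfl⟩ := cs.exists_isReduced w
  rw [← cs.wordProd_reverse, lft_wordProd cs hf h1, lft_wordProd cs hf.inv h1.reverse, List.prod_inv_reverse,
    List.map_map, List.map_reverse]
  rfl

/-- The Garside element `Δ_U` (junk value if `W_U` is infinite). -/
noncomputable def Dl (f : B → G) (U : Set B) : G := lft cs f (w0 cs U)

variable {cs}

theorem Sph.dl_left {U : Set B} (h : Sph cs U) (hf : Braid M f) {v : W} (hv : v ∈ par cs U) :
    Dl cs f U = lft cs f v * lft cs f (v⁻¹ * w0 cs U) := by
  have := h.long.length_mul' (inv_mem hv)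
  rw [← lft_mul cs hf (by rw [mul_inv_cancel_left, ← this, cs.length_inv, add_comm]), mul_inv_cancel_left, Dl]

theorem Sph.dl_right {U : Set B} (h : Sph cs U) (hf : Braid M f) {v : W} (hv : v ∈ par cs U) :
    Dl cs f U = lft cs f (w0 cs U * v⁻¹) * lft cs f v := by
  have := h.long.length_mul (inv_mem hv)
  rw [← lft_mul cs hf (by rw [inv_mul_cancel_right, ← this, cs.length_inv]), inv_mul_cancel_right, Dl]

/-- `Δ_U` permutes the generators of `U` (the same permutation as `w0 U`). -/
theorem Sph.dl_conj {U : Set B} (h : Sph cs U) (hf : Braid M f) {i j : B} (hi : i ∈ U)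
    (hij : w0 cs U * s i = s j * w0 cs U) : Dl cs f U * f i = f j * Dl cs f U := by
  have h1 := lft_of_down cs hf (h.long.2 i hi)
  have h2 := lft_of_downl cs hf (w := w0 cs U) (i := j) (by rw [← hij]; exact h.long.2 i hi)
  unfold Dl
  conv_lhs => rw [h2]
  conv_rhs => rw [h1]
  rw [hij, mul_assoc]

variable (cs)

theorem dl_pair (hf : Braid M f) {i j : B} (hij : i ≠ j) (h : M i j ≠ 0) :
    Dl cs f {i, j} = altP (f i) (f j) (M i j) := by
  rw [Dl, w0_pair cs hij h, lft_wordProd cs hf (isReduced_alt cs hij _ fun _ => le_rfl), hf.prod_alt]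

theorem dl_singleton (hf : Braid M f) (i : B) : Dl cs f {i} = f i := by
  rw [Dl, w0_singleton, lft_simple cs hf]

end lift

/-- The projection `A → W`. -/
def proj : ArtinGroup M →* W := artinLift (braid_simple cs)

@[simp] theorem proj_gen (i : B) : proj cs (artinGen M i) = s i := artinLift_gen _ i

theorem proj_lft (w : W) : proj cs (lft cs (artinGen M) w) = w := by
  rw [map_lft]; simp only [proj_gen]; exact lft_self cs w

theorem proj_mem {U : Set B} {g : ArtinGroup M} (hg : g ∈ stdParabolic M U) : proj cs g ∈ par cs U := by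
  have : stdParabolic M U ≤ (par cs U).comap (proj cs) := (Subgroup.closure_le _).2 (by
    rintro _ ⟨i, hi, rfl⟩
    simpa using simple_mem_par cs hi)
  exact this hg

theorem lft_mem_std {U : Set B} {w : W} (hw : w ∈ par cs U) : lft cs (artinGen M) w ∈ stdParabolic M U :=
  lft_mem_subgroup cs hw

theorem gen_mem_std_iff {U : Set B} {i : B} : artinGen M i ∈ stdParabolic M U ↔ i ∈ U :=
  ⟨fun h => (simple_mem_par_iff M.toCoxeterSystem).1 (by simpa using proj_mem M.toCoxeterSystem h),
    fun h => Subgroup.subset_closure ⟨i, h, rfl⟩⟩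

end Crest.Agent.R175.Cox
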