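import Crest.Agent.R175.Cox.Long

/-!
# Row 175, Coxeter toolkit 4: Cartan matrix, coordinates, Perron–Frobenius vector (owner helper95)
-/

set_option autoImplicit false

namespace Crest.Agent.R175.Cox

open Crest.Agent.R61 Classical

variable {B : Type} (M : CoxeterMatrix B)

/-- The Cartan matrix `-2 cos (π / m)` (`2` on the diagonal, `-2` for the label `∞`). -/
noncomputable def Cm (i j : B) : ℝ := -2 * Real.cos (Real.pi / (M i j : ℝ))

theorem Cm_form (i j : B) : Cm M i j = 2 * form M (al i) (al j) := by rw [form_al_al, Cm]; ring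

theorem Cm_self (i : B) : Cm M i i = 2 := by rw [Cm_form, form_al_self, mul_one]

theorem Cm_symm (i j : B) : Cm M i j = Cm M j i := by rw [Cm, Cm, M.symmetric]

theorem Cm_of_two {i j : B} (h : M i j = 2) : Cm M i j = 0 := by simp [Cm, h]

theorem Cm_of_zero {i j : B} (h : M i j = 0) : Cm M i j = -2 := by simp [Cm, h]

theorem Cm_le_neg_one {i j : B} (hij : i ≠ j) (h : M i j ≠ 2) : Cm M i j ≤ -1 := by
  by_cases h0 : M i j = 0
  · rw [Cm_of_zero M h0]; norm_num
  have h1 := M.off_diagonal i j hij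
  have h3 : (3 : ℝ) ≤ M i j := by exact_mod_cast (by omega : 3 ≤ M i j)
  have : Real.cos (Real.pi / 3) ≤ Real.cos (Real.pi / (M i j : ℝ)) :=
    Real.cos_le_cos_of_nonneg_of_le_pi (by positivity) (by linarith [Real.pi_pos])
      (div_le_div_of_nonneg_left Real.pi_pos.le (by norm_num) h3)
  rw [Real.cos_pi_div_three] at this
  rw [Cm]; linarith

theorem Cm_nonpos {i j : B} (hij : i ≠ j) : Cm M i j ≤ 0 := by
  by_cases h : M i j = 2
  · rw [Cm_of_two M h]
  · linarith [Cm_le_neg_one M hij h]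

theorem neg_two_le_Cm (i j : B) : -2 ≤ Cm M i j := by
  rw [Cm]; linarith [Real.cos_le_one (Real.pi / (M i j : ℝ))]

/-- `x` is supported in `U`. -/
def Supp (U : Set B) (x : B → ℝ) : Prop := ∀ i, i ∉ U → x i = 0

/-- `U` is connected in the Coxeter graph (edges: labels `≠ 2`). -/
def Conn (U : Set B) : Prop :=
  ∀ P : Set B, P ⊆ U → P.Nonempty → (∀ i ∈ P, ∀ j ∈ U, M i j ≠ 2 → j ∈ P) → U ⊆ P

variable [Fintype B]

/-- The vector `∑ x i • α_i`. -/
noncomputable def vec : (B → ℝ) →ₗ[ℝ] V B := ∑ i, (LinearMap.proj i).smulRight (al i)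

/-- The vector `∑ y i • ω_i`, where `form (α_i) (ω_j) = δ_ij`. -/
noncomputable def cov : (B → ℝ) →ₗ[ℝ] V B :=
  ∑ i, (LinearMap.proj i).smulRight (Finsupp.single (Sum.inr i) 1)

theorem vec_apply (x : B → ℝ) : vec x = ∑ i, x i • al i := by simp [vec, LinearMap.sum_apply]

theorem cov_apply (y : B → ℝ) : cov y = ∑ i, y i • Finsupp.single (Sum.inr i) (1 : ℝ) := by
  simp [cov, LinearMap.sum_apply]

@[simp] theorem vec_inl (x : B → ℝ) (i : B) : vec x (Sum.inl i) = x i := by
  simp [vec_apply, al, Finsupp.finsetSum_apply, Finsupp.single_apply]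

@[simp] theorem vec_inr (x : B → ℝ) (i : B) : vec x (Sum.inr i) = 0 := by
  simp [vec_apply, al, Finsupp.finsetSum_apply]

@[simp] theorem cov_inr (y : B → ℝ) (i : B) : cov y (Sum.inr i) = y i := by
  simp [cov_apply, Finsupp.finsetSum_apply, Finsupp.single_apply]

@[simp] theorem cov_inl (y : B → ℝ) (i : B) : cov y (Sum.inl i) = 0 := by
  simp [cov_apply, Finsupp.finsetSum_apply]

theorem vec_single (i : B) : vec (Pi.single i (1 : ℝ)) = al i := by
  ext (a | a) <;> simp [al, Finsupp.single_apply, Pi.single_apply, eq_comm]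

theorem vec_nonneg {x : B → ℝ} : 0 ≤ vec x ↔ 0 ≤ x :=
  ⟨fun h i => by simpa using h (Sum.inl i), fun h => by rintro (a | a) <;> simp [show 0 ≤ x a from h a]⟩

theorem vec_nonpos {x : B → ℝ} : vec x ≤ 0 ↔ x ≤ 0 := by rw [← neg_nonneg, ← map_neg, vec_nonneg, neg_nonneg]

theorem vec_injective : Function.Injective (vec (B := B)) := fun x y h =>
  funext fun i => by simpa using congrArg (fun v : V B => v (Sum.inl i)) h

theorem vec_mem_VU {U : Set B} {x : B → ℝ} : vec x ∈ VU U ↔ Supp U x := by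
  rw [VU, Finsupp.mem_supported']
  refine ⟨fun h i hi => by simpa using h (Sum.inl i) (by simpa using hi), fun h => ?_⟩
  rintro (a | a) ha
  · simpa using h a (by simpa using ha)
  · simp

theorem vec_of_mem {U : Set B} {v : V B} (hv : v ∈ VU U) : vec (fun i => v (Sum.inl i)) = v := by
  ext (a | a)
  · simp
  · rw [vec_inr, (Finsupp.mem_supported' ℝ v).1 hv _ (by simp)]

theorem exists_vec {U : Set B} {v : V B} (hv : v ∈ VU U) : ∃ x, Supp U x ∧ v = vec x :=
  ⟨_, vec_mem_VU.1 ((vec_of_mem hv).symm ▸ hv), (vec_of_mem hv).symm⟩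

theorem form_cov (u : V B) (y : B → ℝ) : form M u (cov y) = ∑ i, u (Sum.inl i) * y i := by
  simp [cov_apply, form_single_inr, mul_comm, -Finsupp.smul_single]

theorem form_al_cov (i : B) (y : B → ℝ) : form M (al i) (cov y) = y i := by
  simp [form_cov, al, Finsupp.single_apply]

theorem form_cov_cov (x y : B → ℝ) : form M (cov x) (cov y) = 0 := by
  rw [form_cov]; simp [cov_apply, Finsupp.finsetSum_apply]

theorem form_vec_cov (x y : B → ℝ) : form M (vec x) (cov y) = ∑ i, x i * y i := by simp [form_cov]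

theorem form_al_vec (i : B) (x : B → ℝ) : 2 * form M (al i) (vec x) = ∑ j, Cm M i j * x j := by
  simp only [vec_apply, map_sum, map_smul, Finset.mul_sum, Cm_form, smul_eq_mul]
  exact Finset.sum_congr rfl fun j _ => by ring

theorem form_vec (x : B → ℝ) (v : V B) : form M (vec x) v = ∑ i, x i * form M (al i) v := by
  simp [vec_apply, LinearMap.sum_apply]

/-- The quadratic form of the Cartan matrix. -/
noncomputable def qf (x : B → ℝ) : ℝ := ∑ i, x i * ∑ j, Cm M i j * x j

theorem qf_form (x : B → ℝ) : qf M x = 2 * form M (vec x) (vec x) := by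
  rw [form_vec, Finset.mul_sum, qf]
  exact Finset.sum_congr rfl fun i _ => by rw [← form_al_vec]; ring

theorem continuous_qf : Continuous (qf M) := by unfold qf; fun_prop

theorem qf_smul (c : ℝ) (x : B → ℝ) : qf M (c • x) = c ^ 2 * qf M x := by
  simp only [qf_form, map_smul, LinearMap.smul_apply, smul_eq_mul]; ring

theorem qf_abs (x : B → ℝ) : qf M |x| ≤ qf M x := by
  simp only [qf, Finset.mul_sum]
  refine Finset.sum_le_sum fun i _ => Finset.sum_le_sum fun j _ => ?_
  simp only [Pi.abs_apply]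
  by_cases h : i = j
  · subst h; rw [Cm_self]; nlinarith [abs_mul_abs_self (x i)]
  · have h1 := Cm_nonpos M h
    have h2 : x i * x j ≤ |x i| * |x j| := by rw [← abs_mul]; exact le_abs_self _
    nlinarith

theorem qf_add_single (y : B → ℝ) (i : B) (t : ℝ) :
    qf M (y + t • Pi.single i 1) = qf M y + 2 * t * (∑ j, Cm M i j * y j) + 2 * t ^ 2 := by
  simp only [qf_form, map_add, map_smul, vec_single, LinearMap.add_apply, LinearMap.smul_apply, smul_eq_mul,
    form_al_self, ← form_al_vec, form_symm M (vec y) (al i)]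
  ring

theorem sq_add_single (y : B → ℝ) (i : B) (t : ℝ) :
    ∑ j, (y + t • Pi.single i (1 : ℝ) : B → ℝ) j ^ 2 = ∑ j, y j ^ 2 + 2 * t * y i + t ^ 2 := by
  have : ∀ j, (y + t • Pi.single i (1 : ℝ) : B → ℝ) j ^ 2 =
      y j ^ 2 + if j = i then 2 * t * y i + t ^ 2 else 0 := fun j => by
    by_cases h : j = i
    · subst h; simp; ring
    · simp [h]
  simp only [this, Finset.sum_add_distrib, Finset.sum_ite_eq', Finset.mem_univ, if_true]; ring

/-- A null vector of the positive semidefinite form `qf - λ |·|²` is an eigenvector. -/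
theorem eigen_of_min {U : Set B} {lam : ℝ} (h : ∀ x, Supp U x → lam * ∑ i, x i ^ 2 ≤ qf M x) {y : B → ℝ}
    (hy : Supp U y) (h0 : qf M y ≤ lam * ∑ i, y i ^ 2) {i : B} (hi : i ∈ U) :
    ∑ j, Cm M i j * y j = lam * y i := by
  have key : ∀ t : ℝ, 0 ≤ (2 - lam) * (t * t) + 2 * (∑ j, Cm M i j * y j - lam * y i) * t + 0 := fun t => by
    have := h (y + t • Pi.single i 1) fun j hj => by
      have : j ≠ i := fun e => hj (e ▸ hi)
      simp [hy j hj, this]
    rw [qf_add_single, sq_add_single] at this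
    nlinarith
  have := discrim_le_zero key
  rw [discrim] at this
  nlinarith [sq_nonneg (∑ j, Cm M i j * y j - lam * y i)]

/-- A non-negative eigenvector on a connected set is positive or zero. -/
theorem pos_of_conn {U : Set B} (hU : Conn M U) {y : B → ℝ} (hy : Supp U y) (h0 : 0 ≤ y) (hne : y ≠ 0)
    (h : ∀ i ∈ U, y i = 0 → 0 ≤ ∑ j, Cm M i j * y j) : ∀ i ∈ U, 0 < y i := by
  intro i hi
  by_contra hlt
  have hz : y i = 0 := le_antisymm (not_lt.1 hlt) (h0 i)
  have := hU {i | i ∈ U ∧ y i = 0} (fun _ h => h.1) ⟨i, hi, hz⟩ fun i hi j hj hM => ⟨hj, by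
    by_cases hij : i = j
    · exact hij ▸ hi.2
    have h1 : ∀ k ∈ Finset.univ, Cm M i k * y k ≤ 0 := fun k _ => by
      by_cases hk : i = k
      · rw [← hk, hi.2, mul_zero]
      · exact mul_nonpos_of_nonpos_of_nonneg (Cm_nonpos M hk) (h0 k)
    have h2 := (Finset.sum_eq_zero_iff_of_nonpos h1).1 (le_antisymm (Finset.sum_nonpos h1) (h i hi.1 hi.2)) j
      (Finset.mem_univ _)
    have h3 := Cm_le_neg_one M hij hM
    exact (mul_eq_zero.1 h2).resolve_left (by linarith)⟩
  refine hne (funext fun j => ?_)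
  by_cases hj : j ∈ U
  · exact (this hj).2
  · exact hy j hj

/-- **Perron–Frobenius** for the Cartan matrix of `U`: the smallest eigenvalue has a non-negative eigenvector. -/
theorem exists_pf {U : Set B} (hU : U.Nonempty) : ∃ (lam : ℝ) (y : B → ℝ), Supp U y ∧ 0 ≤ y ∧ ∑ i, y i ^ 2 = 1 ∧
    qf M y = lam ∧ (∀ i ∈ U, ∑ j, Cm M i j * y j = lam * y i) ∧
    ∀ x, Supp U x → lam * ∑ i, x i ^ 2 ≤ qf M x := by
  set K : Set (B → ℝ) := {x | Supp U x ∧ ∑ i, x i ^ 2 = 1} with hK
  have hc : IsCompact K := by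
    refine Metric.isCompact_of_isClosed_isBounded ?_ ((Metric.isBounded_closedBall (x := 0) (r := 1)).subset ?_)
    · refine IsClosed.inter ?_ (isClosed_eq (by fun_prop) continuous_const)
      have : {x : B → ℝ | Supp U x} = ⋂ i, ⋂ _ : i ∉ U, {x | x i = 0} := by ext x; simp [Supp]
      refine (congrArg IsClosed this).mpr ?_
      exact isClosed_iInter fun i => isClosed_iInter fun _ => isClosed_eq (continuous_apply i) continuous_const
    · intro x hx
      rw [mem_closedBall_zero_iff, pi_norm_le_iff_of_nonneg zero_le_one]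
      intro i
      have := Finset.single_le_sum (f := fun i => x i ^ 2) (fun i _ => sq_nonneg _) (Finset.mem_univ i)
      rw [hx.2] at this
      exact abs_le_one_iff_mul_self_le_one.2 (by nlinarith)
  obtain ⟨i0, hi0⟩ := hU
  obtain ⟨x0, hx0, hm⟩ := hc.exists_isMinOn ⟨Pi.single i0 1, fun j hj => by
    have : j ≠ i0 := fun e => hj (e ▸ hi0)
    simp [this], by simp [Pi.single_apply]⟩ (continuous_qf M).continuousOn
  have hmin : ∀ x, Supp U x → qf M x0 * ∑ i, x i ^ 2 ≤ qf M x := by
    intro x hx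
    rcases (Finset.sum_nonneg fun i _ => sq_nonneg (x i)).eq_or_lt with h | h
    · have : x = 0 := funext fun i => by
        simpa using (Finset.sum_eq_zero_iff_of_nonneg fun i _ => sq_nonneg (x i)).1 h.symm i (Finset.mem_univ _)
      simp [this, qf]
    · set n := ∑ i, x i ^ 2 with hn
      have h1 : ((√n)⁻¹ • x) ∈ K := ⟨fun i hi => by simp [hx i hi], by
        simp only [Pi.smul_apply, smul_eq_mul, mul_pow, ← Finset.mul_sum, inv_pow, Real.sq_sqrt h.le]
        exact inv_mul_cancel₀ h.ne'⟩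
      have h2 : qf M x0 ≤ _ := hm h1
      rw [qf_smul, inv_pow, Real.sq_sqrt h.le] at h2
      rwa [← div_eq_inv_mul, le_div_iff₀ h] at h2
  have hs : Supp U |x0| := fun i hi => by simp [hx0.1 i hi]
  have hn : ∑ i, |x0| i ^ 2 = 1 := by simpa using hx0.2
  have hq : qf M |x0| = qf M x0 := le_antisymm (qf_abs M x0) (by have := hmin _ hs; rwa [hn, mul_one] at this)
  exact ⟨qf M x0, |x0|, hs, abs_nonneg _, hn, hq,
    fun i hi => eigen_of_min M hmin hs (by rw [hn, mul_one, hq]) hi, hmin⟩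

/-- Perron–Frobenius on a connected set: the eigenvector is positive. -/
theorem exists_pf_pos {U : Set B} (hU : U.Nonempty) (hc : Conn M U) : ∃ (lam : ℝ) (y : B → ℝ), Supp U y ∧
    (∀ i ∈ U, 0 < y i) ∧ (∀ i ∈ U, ∑ j, Cm M i j * y j = lam * y i) ∧
    ∀ x, Supp U x → lam * ∑ i, x i ^ 2 ≤ qf M x := by
  obtain ⟨lam, y, h1, h2, h3, -, h4, h5⟩ := exists_pf M hU
  exact ⟨lam, y, h1, pos_of_conn M hc h1 h2 (by rintro rfl; simp at h3)
    (fun i hi h => by rw [h4 i hi, h, mul_zero]), h4, h5⟩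

/-- The form is positive definite on the span of the `α_i`, `i ∈ U`. -/
def PD (U : Set B) : Prop := ∀ x, Supp U x → x ≠ 0 → 0 < qf M x

variable {M}

theorem PD.mono {U U' : Set B} (h : PD M U') (hU : U ⊆ U') : PD M U :=
  fun x hx => h x fun i hi => hx i fun h => hi (hU h)

theorem PD.form_pos {U : Set B} (h : PD M U) {v : V B} (hv : v ∈ VU U) (h0 : v ≠ 0) : 0 < form M v v := by
  obtain ⟨x, hx, rfl⟩ := exists_vec hv
  have := h x hx (by rintro rfl; simp at h0)
  rw [qf_form] at this; linarith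

theorem PD.form_nonneg {U : Set B} (h : PD M U) {v : V B} (hv : v ∈ VU U) : 0 ≤ form M v v := by
  by_cases h0 : v = 0
  · simp [h0]
  · exact (h.form_pos hv h0).le

theorem PD.lower {U : Set B} (h : PD M U) : ∃ c > 0, ∀ x, Supp U x → c * ∑ i, x i ^ 2 ≤ qf M x := by
  rcases U.eq_empty_or_nonempty with rfl | hU
  · exact ⟨1, one_pos, fun x hx => by simp [show x = 0 from funext fun i => hx i (by simp), qf]⟩
  obtain ⟨lam, y, h1, -, h3, h4, -, h5⟩ := exists_pf M hU
  exact ⟨lam, h4 ▸ h y h1 (by rintro rfl; simp at h3), h5⟩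

theorem pd_of_lower {U : Set B} {c : ℝ} (hc : 0 < c) (h : ∀ x, Supp U x → c * ∑ i, x i ^ 2 ≤ qf M x) : PD M U := by
  intro x hx h0
  refine lt_of_lt_of_le (mul_pos hc ?_) (h x hx)
  obtain ⟨i, hi⟩ := Function.ne_iff.1 h0
  exact Finset.sum_pos' (fun i _ => sq_nonneg _) ⟨i, Finset.mem_univ _, sq_pos_of_ne_zero hi⟩

/-- If the form is not positive definite there is `y ≥ 0`, `y ≠ 0` with `C y ≤ 0` on `U`. -/
theorem exists_of_not_pd {U : Set B} (h : ¬ PD M U) :
    ∃ y, Supp U y ∧ 0 ≤ y ∧ y ≠ 0 ∧ ∀ i ∈ U, ∑ j, Cm M i j * y j ≤ 0 := by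
  rcases U.eq_empty_or_nonempty with rfl | hU
  · exact absurd (fun x hx h0 => absurd (funext fun i => hx i (by simp)) h0) h
  obtain ⟨lam, y, h1, h2, h3, -, h4, h5⟩ := exists_pf M hU
  have : lam ≤ 0 := not_lt.1 fun hl => h (pd_of_lower hl h5)
  exact ⟨y, h1, h2, by rintro rfl; simp at h3, fun i hi => h4 i hi ▸ mul_nonpos_of_nonpos_of_nonneg this (h2 i)⟩

/-- A positive vector with `C y > 0` on `U` certifies positive definiteness. -/
theorem pd_of_vec {U : Set B} {y : B → ℝ} (hy : Supp U y) (h0 : 0 ≤ y) (h : ∀ i ∈ U, 0 < ∑ j, Cm M i j * y j) :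
    PD M U := by
  by_contra hn
  obtain ⟨z, h1, h2, h3, h4⟩ := exists_of_not_pd hn
  have e : ∑ i, z i * ∑ j, Cm M i j * y j = ∑ i, y i * ∑ j, Cm M i j * z j := by
    simp only [Finset.mul_sum]
    rw [Finset.sum_comm]
    exact Finset.sum_congr rfl fun i _ => Finset.sum_congr rfl fun j _ => by rw [Cm_symm M j i]; ring
  have a1 : ∑ i, y i * ∑ j, Cm M i j * z j ≤ 0 := Finset.sum_nonpos fun i _ => by
    by_cases hi : i ∈ U
    · exact mul_nonpos_of_nonneg_of_nonpos (h0 i) (h4 i hi)
    · rw [hy i hi, zero_mul]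
  obtain ⟨i, hi⟩ := Function.ne_iff.1 h3
  have hiU : i ∈ U := by_contra fun h => hi (h1 i h)
  have a2 : 0 < ∑ i, z i * ∑ j, Cm M i j * y j := Finset.sum_pos' (fun i _ => by
    by_cases hi : i ∈ U
    · exact mul_nonneg (h2 i) (h i hi).le
    · rw [h1 i hi, zero_mul]) ⟨i, Finset.mem_univ _, mul_pos (lt_of_le_of_ne (h2 i) (Ne.symm hi)) (h i hiU)⟩
  linarith

/-- Affine case: the proper subsets of a connected positive semidefinite set are positive definite. -/
theorem pd_of_psd {U U' : Set B} (hc : Conn M U) (h : ∀ x, Supp U x → 0 ≤ qf M x) (hU : U' ⊂ U) : PD M U' := by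
  intro x hx h0
  have hxU : Supp U |x| := fun i hi => by simp [hx i fun h => hi (hU.1 h)]
  by_contra hn
  have h1 : qf M |x| ≤ 0 := (qf_abs M x).trans (not_lt.1 hn)
  obtain ⟨i, hi, hi'⟩ := Set.exists_of_ssubset hU
  have := pos_of_conn M hc hxU (abs_nonneg _) (by simpa using h0) (fun j hj _ => by
    rw [eigen_of_min M (lam := 0) (by simpa using h) hxU (by simpa using h1) hj, zero_mul]) i hi
  simp [hx i hi'] at this

/-- Dual vectors inside the span of the `α_i`, `i ∈ U`. -/
theorem PD.exists_dual {U : Set B} (h : PD M U) (y : B → ℝ) :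
    ∃ x, Supp U x ∧ ∀ i ∈ U, ∑ j, Cm M i j * x j = y i := by
  let L : (B → ℝ) →ₗ[ℝ] (B → ℝ) := LinearMap.pi fun i =>
    if i ∈ U then ∑ j, Cm M i j • LinearMap.proj j else LinearMap.proj i
  have hL : ∀ x i, L x i = if i ∈ U then ∑ j, Cm M i j * x j else x i := fun x i => by
    simp only [L, LinearMap.pi_apply]; split_ifs <;> simp [LinearMap.sum_apply]
  have hinj : Function.Injective L := by
    rw [injective_iff_map_eq_zero]
    intro x hx
    have hs : Supp U x := fun i hi => by simpa [hL, hi] using congrFun hx i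
    by_contra h0
    refine (h x hs h0).ne' (Finset.sum_eq_zero fun i _ => ?_)
    by_cases hi : i ∈ U
    · have := congrFun hx i
      rw [hL, if_pos hi] at this
      rw [this]; simp
    · rw [hs i hi, zero_mul]
  obtain ⟨x, hx⟩ := LinearMap.injective_iff_surjective.1 hinj fun i => if i ∈ U then y i else 0
  exact ⟨x, fun i hi => by simpa [hL, hi] using congrFun hx i, fun i hi => by simpa [hL, hi] using congrFun hx i⟩

/-- The inverse Cartan matrix of a positive definite set is non-negative. -/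
theorem PD.nonneg_of {U : Set B} (h : PD M U) {x : B → ℝ} (hx : Supp U x)
    (h0 : ∀ i ∈ U, 0 ≤ ∑ j, Cm M i j * x j) : 0 ≤ x := by
  set z : B → ℝ := fun i => max (-x i) 0 with hz
  by_contra hn
  have hz0 : z ≠ 0 := fun e => hn fun i => by
    have := congrFun e i
    simp only [hz, Pi.zero_apply, max_eq_right_iff] at this
    simpa using this
  refine (h z (fun i hi => by simp [hz, hx i hi]) hz0).not_ge (Finset.sum_nonpos fun i _ => ?_)
  by_cases hi : i ∈ U
  swap
  · simp [hz, hx i hi]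
  rcases le_total 0 (x i) with h1 | h1
  · simp [hz, h1]
  refine mul_nonpos_of_nonneg_of_nonpos (le_max_right _ _) (le_trans ?_ (neg_nonpos.2 (h0 i hi)))
  rw [← Finset.sum_neg_distrib]
  refine Finset.sum_le_sum fun j _ => ?_
  by_cases hij : i = j
  · subst hij; simp [hz, h1]
  · have := Cm_nonpos M hij
    have h2 : -x j ≤ z j := le_max_left _ _
    nlinarith

end Crest.Agent.R175.Cox
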