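import Crest.Agent.R61.Geom

/-!
# Row 175, Coxeter toolkit 1: exchange condition, standard parabolic subgroups, minimal coset representatives
(built on the geometric representation `R61/Geom`; owner helper95)
-/

set_option autoImplicit false

namespace Crest.Agent.R175.Cox

open Crest.Agent.R61 Classical

variable {B W : Type} [Group W] {M : CoxeterMatrix B} (cs : CoxeterSystem M W)

local prefix:100 "s " => cs.simple
local prefix:100 "π " => cs.wordProd
local prefix:100 "ℓ " => cs.length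

theorem up_iff_al (w : W) (i : B) : ℓ w < ℓ (w * s i) ↔ 0 ≤ rep cs w (al i) := by
  rw [up_iff (cs.isReflection_simple i), rt_simple]

theorem down_iff_al (w : W) (i : B) : ℓ (w * s i) < ℓ w ↔ rep cs w (al i) ≤ 0 := by
  rw [down_iff (cs.isReflection_simple i), rt_simple]

theorem up_succ {w : W} {i : B} (h : ℓ w < ℓ (w * s i)) : ℓ (w * s i) = ℓ w + 1 := by
  rcases cs.length_mul_simple w i with h' | h' <;> omega

theorem down_succ {w : W} {i : B} (h : ℓ (w * s i) < ℓ w) : ℓ (w * s i) + 1 = ℓ w := by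
  rcases cs.length_mul_simple w i with h' | h' <;> omega

theorem upl_succ {w : W} {i : B} (h : ℓ w < ℓ (s i * w)) : ℓ (s i * w) = ℓ w + 1 := by
  rcases cs.length_simple_mul w i with h' | h' <;> omega

theorem downl_succ {w : W} {i : B} (h : ℓ (s i * w) < ℓ w) : ℓ (s i * w) + 1 = ℓ w := by
  rcases cs.length_simple_mul w i with h' | h' <;> omega

theorem up_or_down' (w : W) (i : B) : ℓ w < ℓ (w * s i) ∨ ℓ (w * s i) < ℓ w := by
  rcases cs.length_mul_simple w i with h' | h' <;> omega

theorem upl_or_downl (w : W) (i : B) : ℓ w < ℓ (s i * w) ∨ ℓ (s i * w) < ℓ w := by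
  rcases cs.length_simple_mul w i with h' | h' <;> omega

theorem length_simple_mul_eq (w : W) (i : B) : ℓ (s i * w) = ℓ (w⁻¹ * s i) := by
  rw [← cs.length_inv, mul_inv_rev, cs.inv_simple]

theorem upl_iff_al (w : W) (i : B) : ℓ w < ℓ (s i * w) ↔ 0 ≤ rep cs w⁻¹ (al i) := by
  rw [← up_iff_al, length_simple_mul_eq, cs.length_inv]

theorem downl_iff_al (w : W) (i : B) : ℓ (s i * w) < ℓ w ↔ rep cs w⁻¹ (al i) ≤ 0 := by
  rw [← down_iff_al, length_simple_mul_eq, cs.length_inv]

theorem simple_injective : Function.Injective cs.simple := by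
  intro i j h
  by_contra hij
  have h1 := rep_simple_al cs i
  rw [h, rep_simple] at h1
  have h2 := congrArg (fun v : V B => v (Sum.inl i)) h1
  simp [al, Ne.symm hij] at h2
  norm_num at h2

/-- Induction on the length, adding letters on the right. -/
theorem length_induction_right {p : W → Prop} (w : W) (one : p 1)
    (step : ∀ (w : W) (i : B), ℓ (w * s i) = ℓ w + 1 → p w → p (w * s i)) : p w := by
  have := length_induction_left cs (p := fun w => p w⁻¹) w⁻¹ (by simpa using one) (fun w i h hp => by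
    simp only [mul_inv_rev, cs.inv_simple]
    exact step _ i (by rw [← length_simple_mul_eq, cs.length_inv, h]) hp)
  simpa using this

/-- The strong exchange condition (for an arbitrary word). -/
theorem exchange {t : W} (ht : cs.IsReflection t) (ω : List B) (h : ℓ (π ω * t) < ℓ (π ω)) :
    ∃ j < ω.length, π ω * t = π (ω.eraseIdx j) := by
  induction ω with
  | nil => simp at h
  | cons i ω ih =>
    rcases up_or_down ht (π ω) with h1 | h1
    · rw [cs.wordProd_cons] at h ⊢
      have := conj_eq_simple ht ((up_iff ht _).1 h1) ((down_iff ht _).1 h)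
      refine ⟨0, by simp, ?_⟩
      rw [List.eraseIdx_cons_zero, ← this]
      have h2 := ht.mul_self
      calc π ω * t * (π ω)⁻¹ * π ω * t = π ω * (t * t) := by group
        _ = π ω := by rw [h2, mul_one]
    · obtain ⟨j, hj, e⟩ := ih h1
      refine ⟨j + 1, by simpa using hj, ?_⟩
      rw [List.eraseIdx_cons_succ, cs.wordProd_cons, cs.wordProd_cons, mul_assoc, e]

theorem isReduced_concat {ω : List B} {i : B} (hω : cs.IsReduced ω) (h : ℓ (π ω) < ℓ (π ω * s i)) :
    cs.IsReduced (ω ++ [i]) := by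
  unfold CoxeterSystem.IsReduced at *
  rw [cs.wordProd_append, cs.wordProd_singleton, up_succ cs h, hω]; simp

theorem isReduced_append {ω η : List B} (hω : cs.IsReduced ω) (hη : cs.IsReduced η)
    (h : ℓ (π ω * π η) = ℓ (π ω) + ℓ (π η)) : cs.IsReduced (ω ++ η) := by
  unfold CoxeterSystem.IsReduced at *
  rw [cs.wordProd_append, h, hω, hη]; simp

theorem IsReduced.of_concat {ω : List B} {i : B} (h : cs.IsReduced (ω ++ [i])) :
    cs.IsReduced ω ∧ ℓ (π ω * s i) = ℓ (π ω) + 1 := by
  have h1 : cs.IsReduced ω := by simpa using h.take ω.length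
  refine ⟨h1, ?_⟩
  have := h.eq
  rw [cs.wordProd_append, cs.wordProd_singleton] at this
  rw [this, h1.eq]; simp

/-- The standard parabolic subgroup `W_U`. -/
def par (U : Set B) : Subgroup W := Subgroup.closure (cs.simple '' U)

theorem simple_mem_par {U : Set B} {i : B} (h : i ∈ U) : s i ∈ par cs U :=
  Subgroup.subset_closure ⟨i, h, rfl⟩

theorem par_mono {U U' : Set B} (h : U ⊆ U') : par cs U ≤ par cs U' :=
  Subgroup.closure_mono (Set.image_mono h)

theorem par_univ : par cs Set.univ = ⊤ := by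
  rw [par, Set.image_univ, cs.subgroup_closure_range_simple]

theorem par_empty : par cs ∅ = ⊥ := by simp [par]

theorem wordProd_mem_par {U : Set B} {ω : List B} (h : ∀ i ∈ ω, i ∈ U) : π ω ∈ par cs U := by
  induction ω with
  | nil => simp
  | cons i ω ih =>
    rw [cs.wordProd_cons]
    exact mul_mem (simple_mem_par cs (h i (by simp))) (ih fun j hj => h j (by simp [hj]))

theorem exists_word_par {U : Set B} {w : W} (hw : w ∈ par cs U) :
    ∃ ω : List B, (∀ i ∈ ω, i ∈ U) ∧ w = π ω := by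
  induction hw using Subgroup.closure_induction with
  | mem x hx => obtain ⟨i, hi, rfl⟩ := hx; exact ⟨[i], by simpa using hi, by simp⟩
  | one => exact ⟨[], by simp, by simp⟩
  | mul x y _ _ hx hy =>
    obtain ⟨ω, h1, rfl⟩ := hx
    obtain ⟨η, h2, rfl⟩ := hy
    exact ⟨ω ++ η, fun i hi => (List.mem_append.1 hi).elim (h1 i) (h2 i), (cs.wordProd_append _ _).symm⟩
  | inv x _ hx =>
    obtain ⟨ω, h1, rfl⟩ := hx
    exact ⟨ω.reverse, fun i hi => h1 i (List.mem_reverse.1 hi), by simp⟩

theorem exists_reduced_par {U : Set B} {w : W} (hw : w ∈ par cs U) :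
    ∃ ω : List B, cs.IsReduced ω ∧ (∀ i ∈ ω, i ∈ U) ∧ w = π ω := by
  obtain ⟨ω, h, rfl⟩ := exists_word_par cs hw
  clear hw
  induction ω using List.reverseRecOn with
  | nil => exact ⟨[], by simp [CoxeterSystem.IsReduced], by simp, rfl⟩
  | append_singleton ω i ih =>
    obtain ⟨η, h1, h2, h3⟩ := ih fun j hj => h j (by simp [hj])
    rw [cs.wordProd_append, cs.wordProd_singleton, h3]
    rcases up_or_down' cs (π η) i with h4 | h4
    · refine ⟨η ++ [i], isReduced_concat cs h1 h4, fun j hj => ?_, by simp [cs.wordProd_append]⟩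
      rcases List.mem_append.1 hj with hj | hj
      · exact h2 j hj
      · exact h j (by simp at hj; simp [hj])
    · obtain ⟨j, hj, e⟩ := exchange cs (cs.isReflection_simple i) η h4
      refine ⟨η.eraseIdx j, ?_, fun k hk => h2 k (List.mem_of_mem_eraseIdx hk), e⟩
      unfold CoxeterSystem.IsReduced at *
      have := down_succ cs h4
      rw [← e, List.length_eraseIdx_of_lt hj]; omega

theorem simple_mem_par_iff {U : Set B} {i : B} : s i ∈ par cs U ↔ i ∈ U := by
  refine ⟨fun h => ?_, simple_mem_par cs⟩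
  obtain ⟨ω, h1, h2, h3⟩ := exists_reduced_par cs h
  have h4 := h1.eq
  rw [← h3, cs.length_simple] at h4
  obtain ⟨j, rfl⟩ := List.length_eq_one_iff.1 h4.symm
  rw [cs.wordProd_singleton] at h3
  rw [simple_injective cs h3]; exact h2 j (by simp)

/-- A right descent of an element of `W_U` lies in `U`. -/
theorem mem_of_down {U : Set B} {w : W} {i : B} (hw : w ∈ par cs U) (h : ℓ (w * s i) < ℓ w) : i ∈ U := by
  obtain ⟨ω, h2, rfl⟩ := exists_word_par cs hw
  obtain ⟨j, -, e⟩ := exchange cs (cs.isReflection_simple i) ω h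
  have : π ω * s i ∈ par cs U := e ▸ wordProd_mem_par cs fun k hk => h2 k (List.mem_of_mem_eraseIdx hk)
  exact (simple_mem_par_iff cs).1 ((Subgroup.mul_mem_cancel_left _ hw).1 this)

theorem mem_of_downl {U : Set B} {w : W} {i : B} (hw : w ∈ par cs U) (h : ℓ (s i * w) < ℓ w) : i ∈ U :=
  mem_of_down cs (inv_mem hw) (by rwa [← length_simple_mul_eq, cs.length_inv])

/-- Every reduced word of an element of `W_U` has its letters in `U`. -/
theorem mem_of_reduced {U : Set B} {ω : List B} (hω : cs.IsReduced ω) (hw : π ω ∈ par cs U) :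
    ∀ i ∈ ω, i ∈ U := by
  induction ω using List.reverseRecOn with
  | nil => simp
  | append_singleton ω i ih =>
    obtain ⟨h1, h2⟩ := IsReduced.of_concat cs hω
    rw [cs.wordProd_append, cs.wordProd_singleton] at hw
    have hi : i ∈ U := mem_of_down cs hw (by rw [cs.simple_mul_simple_cancel_right]; omega)
    intro j hj
    rcases List.mem_append.1 hj with hj | hj
    · exact ih h1 ((Subgroup.mul_mem_cancel_right _ (simple_mem_par cs hi)).1 hw) j hj
    · simp at hj; exact hj ▸ hi

theorem par_inf (U U' : Set B) : par cs U ⊓ par cs U' = par cs (U ∩ U') := by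
  refine le_antisymm (fun w hw => ?_)
    (le_inf (par_mono cs Set.inter_subset_left) (par_mono cs Set.inter_subset_right))
  obtain ⟨ω, h1, rfl⟩ := cs.exists_isReduced w
  exact wordProd_mem_par cs fun i hi => ⟨mem_of_reduced cs h1 hw.1 i hi, mem_of_reduced cs h1 hw.2 i hi⟩

/-- Induction on the length inside `W_U`, adding letters on the right. -/
theorem par_induction_right {U : Set B} {p : W → Prop} {w : W} (hw : w ∈ par cs U) (one : p 1)
    (step : ∀ w ∈ par cs U, ∀ i ∈ U, ℓ (w * s i) = ℓ w + 1 → p w → p (w * s i)) : p w := by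
  induction w using length_induction_right cs with
  | one => exact one
  | step w i h ih =>
    have hi : i ∈ U := mem_of_down cs hw (by rw [cs.simple_mul_simple_cancel_right]; omega)
    have hw' := (Subgroup.mul_mem_cancel_right _ (simple_mem_par cs hi)).1 hw
    exact step w hw' i hi h (ih hw')

/-- Induction on the length inside `W_U`, adding letters on the left. -/
theorem par_induction_left {U : Set B} {p : W → Prop} {w : W} (hw : w ∈ par cs U) (one : p 1)
    (step : ∀ w ∈ par cs U, ∀ i ∈ U, ℓ (s i * w) = ℓ w + 1 → p w → p (s i * w)) : p w := by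
  induction w using length_induction_left cs with
  | one => exact one
  | step w i h ih =>
    have hi : i ∈ U := mem_of_downl cs hw (by rw [cs.simple_mul_simple_cancel_left]; omega)
    have hw' := (Subgroup.mul_mem_cancel_left _ (simple_mem_par cs hi)).1 hw
    exact step w hw' i hi h (ih hw')

/-- The span of the simple roots `α_i`, `i ∈ U`. -/
noncomputable def VU (U : Set B) : Submodule ℝ (V B) := Finsupp.supported ℝ ℝ (Sum.inl '' U)

theorem al_mem_VU {U : Set B} {i : B} (h : i ∈ U) : al i ∈ VU U :=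
  Finsupp.single_mem_supported ℝ 1 ⟨i, h, rfl⟩

theorem rep_sub_mem_VU {U : Set B} {w : W} (hw : w ∈ par cs U) (v : V B) : rep cs w v - v ∈ VU U := by
  have : par cs U ≤ Fx cs (VU U) := (Subgroup.closure_le _).2 (by
    rintro _ ⟨i, hi, rfl⟩; exact simple_mem_Fx (al_mem_VU hi))
  exact (mem_Fx cs).1 (this hw) v

theorem rep_mem_VU {U : Set B} {w : W} (hw : w ∈ par cs U) {v : V B} (hv : v ∈ VU U) : rep cs w v ∈ VU U := by
  simpa using add_mem (rep_sub_mem_VU cs hw v) hv

/-- A linear map that is non-negative on the `α_i`, `i ∈ U`, is non-negative on the positive cone of `VU U`. -/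
theorem cone_nonneg {E : Type} [AddCommGroup E] [Module ℝ E] [PartialOrder E] [IsOrderedAddMonoid E]
    [PosSMulMono ℝ E] {U : Set B} (f : V B →ₗ[ℝ] E) (hf : ∀ i ∈ U, 0 ≤ f (al i)) {γ : V B} (hγ : γ ∈ VU U)
    (h0 : 0 ≤ γ) : 0 ≤ f γ := by
  rw [← Finsupp.sum_single γ, Finsupp.sum, map_sum]
  refine Finset.sum_nonneg fun a ha => ?_
  obtain ⟨i, hi, rfl⟩ := (Finsupp.mem_supported ℝ γ).1 hγ ha
  have : Finsupp.single (Sum.inl i) (γ (Sum.inl i)) = γ (Sum.inl i) • al i := by simp [al]
  rw [this, map_smul]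
  exact smul_nonneg (h0 _) (hf i hi)

theorem cone_nonpos {E : Type} [AddCommGroup E] [Module ℝ E] [PartialOrder E] [IsOrderedAddMonoid E]
    [PosSMulMono ℝ E] {U : Set B} (f : V B →ₗ[ℝ] E) (hf : ∀ i ∈ U, f (al i) ≤ 0) {γ : V B} (hγ : γ ∈ VU U)
    (h0 : 0 ≤ γ) : f γ ≤ 0 := by
  simpa using cone_nonneg (-f) (fun i hi => by simpa using hf i hi) hγ h0

/-- `x` is the shortest element of `x W_U`: lengths add. -/
theorem length_mul_of_min {U : Set B} {x v : W} (hx : ∀ i ∈ U, ℓ x < ℓ (x * s i)) (hv : v ∈ par cs U) :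
    ℓ (x * v) = ℓ x + ℓ v := by
  refine par_induction_right cs (p := fun v => ℓ (x * v) = ℓ x + ℓ v) hv (by simp) fun w hw i hi h ih => ?_
  have h1 : 0 ≤ rep cs w (al i) := (up_iff_al cs w i).1 (by omega)
  have h2 : 0 ≤ rep cs (x * w) (al i) := by
    rw [rep_mul]
    exact cone_nonneg (rep cs x) (fun j hj => (up_iff_al cs x j).1 (hx j hj)) (rep_mem_VU cs hw (al_mem_VU hi)) h1
  have := up_succ cs ((up_iff_al cs _ i).2 h2)
  rw [← mul_assoc, this, ih, h, add_assoc]

theorem length_mul_of_minl {U : Set B} {x v : W} (hx : ∀ i ∈ U, ℓ x < ℓ (s i * x)) (hv : v ∈ par cs U) :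
    ℓ (v * x) = ℓ v + ℓ x := by
  have := length_mul_of_min cs (x := x⁻¹) (fun i hi => by
    rw [← length_simple_mul_eq, cs.length_inv]; exact hx i hi) (inv_mem hv)
  rw [← mul_inv_rev, cs.length_inv, cs.length_inv, cs.length_inv] at this
  omega

/-- `x` is the longest element of `x W_U`: lengths subtract. -/
theorem length_mul_of_max {U : Set B} {x v : W} (hx : ∀ i ∈ U, ℓ (x * s i) < ℓ x) (hv : v ∈ par cs U) :
    ℓ (x * v) + ℓ v = ℓ x := by
  refine par_induction_right cs (p := fun v => ℓ (x * v) + ℓ v = ℓ x) hv (by simp) fun w hw i hi h ih => ?_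
  have h1 : 0 ≤ rep cs w (al i) := (up_iff_al cs w i).1 (by omega)
  have h2 : rep cs (x * w) (al i) ≤ 0 := by
    rw [rep_mul]
    exact cone_nonpos (rep cs x) (fun j hj => (down_iff_al cs x j).1 (hx j hj)) (rep_mem_VU cs hw (al_mem_VU hi)) h1
  have := down_succ cs ((down_iff_al cs _ i).2 h2)
  rw [← mul_assoc]; omega

theorem length_mul_of_maxl {U : Set B} {x v : W} (hx : ∀ i ∈ U, ℓ (s i * x) < ℓ x) (hv : v ∈ par cs U) :
    ℓ (v * x) + ℓ v = ℓ x := by
  have := length_mul_of_max cs (x := x⁻¹) (fun i hi => by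
    rw [← length_simple_mul_eq, cs.length_inv]; exact hx i hi) (inv_mem hv)
  rw [← mul_inv_rev, cs.length_inv, cs.length_inv, cs.length_inv] at this
  omega

/-- `w = x * v` with `x` minimal in `w W_U`, `v ∈ W_U`. -/
theorem exists_min (U : Set B) (w : W) :
    ∃ x v, (∀ i ∈ U, ℓ x < ℓ (x * s i)) ∧ v ∈ par cs U ∧ w = x * v ∧ ℓ w = ℓ x + ℓ v := by
  suffices ∃ x v, (∀ i ∈ U, ℓ x < ℓ (x * s i)) ∧ v ∈ par cs U ∧ w = x * v by
    obtain ⟨x, v, h1, h2, rfl⟩ := this
    exact ⟨x, v, h1, h2, rfl, length_mul_of_min cs h1 h2⟩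
  induction hn : ℓ w using Nat.strong_induction_on generalizing w with
  | _ n ih =>
    by_cases h : ∀ i ∈ U, ℓ w < ℓ (w * s i)
    · exact ⟨w, 1, h, one_mem _, by simp⟩
    · push Not at h
      obtain ⟨i, hi, h⟩ := h
      have h' : ℓ (w * s i) < ℓ w := (up_or_down' cs w i).resolve_left (by omega)
      obtain ⟨x, v, h1, h2, h3⟩ := ih _ (hn ▸ h') (w * s i) rfl
      exact ⟨x, v * s i, h1, mul_mem h2 (simple_mem_par cs hi), by
        rw [← mul_assoc, ← h3, cs.simple_mul_simple_cancel_right]⟩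

/-- `w = v * x` with `x` minimal in `W_U w`, `v ∈ W_U`. -/
theorem exists_minl (U : Set B) (w : W) :
    ∃ v x, (∀ i ∈ U, ℓ x < ℓ (s i * x)) ∧ v ∈ par cs U ∧ w = v * x ∧ ℓ w = ℓ v + ℓ x := by
  obtain ⟨x, v, h1, h2, h3, -⟩ := exists_min cs U w⁻¹
  have h4 : ∀ i ∈ U, ℓ x⁻¹ < ℓ (s i * x⁻¹) := fun i hi => by
    rw [length_simple_mul_eq, inv_inv, cs.length_inv]; exact h1 i hi
  have h5 : w = v⁻¹ * x⁻¹ := by rw [← mul_inv_rev, ← h3, inv_inv]
  exact ⟨v⁻¹, x⁻¹, h4, inv_mem h2, h5, by rw [h5]; exact length_mul_of_minl cs h4 (inv_mem h2)⟩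

/-- The minimal coset representative is unique. -/
theorem min_unique {U : Set B} {x y : W} (hx : ∀ i ∈ U, ℓ x < ℓ (x * s i)) (hy : ∀ i ∈ U, ℓ y < ℓ (y * s i))
    (h : x⁻¹ * y ∈ par cs U) : x = y := by
  have h1 := length_mul_of_min cs hx h
  have h2 := length_mul_of_min cs hy (inv_mem h)
  rw [mul_inv_cancel_left] at h1
  rw [mul_inv_rev, inv_inv, mul_inv_cancel_left] at h2
  have : ℓ (x⁻¹ * y) = 0 := by omega
  exact inv_mul_eq_one.1 (cs.length_eq_zero_iff.1 this)

/-- Deodhar's lemma: if `x` is minimal in `x W_U` and `s_j x` is not, then `s_j x = x s_i` for some `i ∈ U`. -/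
theorem deodhar {U : Set B} {x : W} (hx : ∀ i ∈ U, ℓ x < ℓ (x * s i)) (j : B) :
    (∀ i ∈ U, ℓ (s j * x) < ℓ (s j * x * s i)) ∨ ∃ i ∈ U, s j * x = x * s i := by
  by_cases h : ∀ i ∈ U, ℓ (s j * x) < ℓ (s j * x * s i)
  · exact Or.inl h
  · push Not at h
    obtain ⟨i, hi, h⟩ := h
    have h' := (up_or_down' cs (s j * x) i).resolve_left (by omega)
    have := conj_eq_simple (cs.isReflection_simple i) ((up_iff (cs.isReflection_simple i) _).1 (hx i hi))
      ((down_iff (cs.isReflection_simple i) _).1 h')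
    exact Or.inr ⟨i, hi, by rw [← this]; group⟩

end Crest.Agent.R175.Cox
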